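import Vale.Agent.H28.Conv

open Set

namespace Vale.Agent.H13.GADG

open Vale.Agent.H28

theorem pairEnt_nonneg (C : ℝ) : 0 ≤ pairEnt 1 (C ^ 2 / 4) := by
  have hs : Real.sqrt (1 ^ 2 - 4 * (C ^ 2 / 4)) ≤ 1 := by
    rw [Real.sqrt_le_left zero_le_one, one_pow]
    nlinarith
  have hs0 := Real.sqrt_nonneg (1 ^ 2 - 4 * (C ^ 2 / 4))
  unfold pairEnt rootP rootM
  apply add_nonneg
  · exact Real.negMulLog_nonneg (by linarith) (by linarith)
  · exact Real.negMulLog_nonneg (by linarith) (by linarith)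

theorem pairEnt_zero : pairEnt 1 ((0 : ℝ) ^ 2 / 4) = 0 := by
  rw [pairEnt_eq (u := 1) (v := 0) (by ring) (by ring)]
  simp

theorem eof_mono : MonotoneOn (fun C : ℝ => pairEnt 1 (C ^ 2 / 4)) (Icc 0 1) := by
  intro x hx y hy hxy
  simp only
  rcases hy.1.eq_or_lt with h | h
  · have : x = y := le_antisymm hxy (by rw [← h]; exact hx.1)
    rw [this]
  · have ht0 : 0 ≤ x / y := div_nonneg hx.1 h.le
    have ht1 : x / y ≤ 1 := (div_le_one h).2 hxy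
    have h0m : (0 : ℝ) ∈ Icc (0 : ℝ) 1 := by simp
    have hc := eof_convex.2 hy h0m ht0 (by linarith : 0 ≤ 1 - x / y) (by ring)
    simp only [smul_eq_mul, mul_zero, add_zero] at hc
    rw [pairEnt_zero, div_mul_cancel₀ x h.ne', mul_zero, add_zero] at hc
    have hnn := pairEnt_nonneg y
    refine hc.trans ?_
    calc x / y * pairEnt 1 (y ^ 2 / 4) ≤ 1 * pairEnt 1 (y ^ 2 / 4) :=
          mul_le_mul_of_nonneg_right ht1 hnn
      _ = _ := one_mul _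

theorem norm_convex {κ c : ℝ} (hκ : 0 ≤ κ) (hc : 0 ≤ c) {u v a b : ℝ} (ha : 0 ≤ a) (hb : 0 ≤ b)
    (hab : a + b = 1) :
    Real.sqrt (4 * c + 4 * κ * (a * u + b * v) ^ 2)
      ≤ a * Real.sqrt (4 * c + 4 * κ * u ^ 2) + b * Real.sqrt (4 * c + 4 * κ * v ^ 2) := by
  have hu0 : 0 ≤ 4 * c + 4 * κ * u ^ 2 := by positivity
  have hv0 : 0 ≤ 4 * c + 4 * κ * v ^ 2 := by positivity
  set U := Real.sqrt (4 * c + 4 * κ * u ^ 2) with hU
  set V := Real.sqrt (4 * c + 4 * κ * v ^ 2) with hV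
  have hU0 : 0 ≤ U := Real.sqrt_nonneg _
  have hV0 : 0 ≤ V := Real.sqrt_nonneg _
  have hU2 : U ^ 2 = 4 * c + 4 * κ * u ^ 2 := Real.sq_sqrt hu0
  have hV2 : V ^ 2 = 4 * c + 4 * κ * v ^ 2 := Real.sq_sqrt hv0
  have hUV : 4 * c + 4 * κ * (u * v) ≤ U * V := by
    apply le_of_sq_le_sq _ (by positivity)
    rw [mul_pow, hU2, hV2]
    nlinarith [mul_nonneg (mul_nonneg hκ hc) (sq_nonneg (u - v))]
  rw [Real.sqrt_le_left (by positivity)]
  have ha2 : a ^ 2 + 2 * (a * b) + b ^ 2 = 1 := by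
    have : (a + b) ^ 2 = 1 := by rw [hab]; ring
    nlinarith
  have key : (a * U + b * V) ^ 2 = a ^ 2 * U ^ 2 + 2 * (a * b) * (U * V) + b ^ 2 * V ^ 2 := by ring
  rw [key, hU2, hV2]
  have h3 := mul_le_mul_of_nonneg_left hUV (by positivity : 0 ≤ 2 * (a * b))
  calc 4 * c + 4 * κ * (a * u + b * v) ^ 2
      = 4 * c * (a ^ 2 + 2 * (a * b) + b ^ 2) + 4 * κ * (a * u + b * v) ^ 2 := by rw [ha2]; ring
    _ = a ^ 2 * (4 * c + 4 * κ * u ^ 2) + 2 * (a * b) * (4 * c + 4 * κ * (u * v))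
        + b ^ 2 * (4 * c + 4 * κ * v ^ 2) := by ring
    _ ≤ _ := by linarith

/-- piece (G): convexity of the scalar function of the generalized amplitude damping channel -/
theorem g_convex_all {γ ν : ℝ} (hγ0 : 0 ≤ γ) (hγ1 : γ ≤ 1) (hν0 : 0 ≤ ν) (hν1 : ν ≤ 1) :
    ConvexOn ℝ (Icc 0 1) (fun q : ℝ => pairEnt 1 (((1 - γ) * q + γ * ν)
      * (1 - ((1 - γ) * q + γ * ν)) - (1 - γ) * (q * (1 - q)))) := by
  set κ := γ * (1 - γ) with hκ
  set c := γ * (ν * (1 - ν)) with hc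
  have hκ0 : 0 ≤ κ := mul_nonneg hγ0 (by linarith)
  have hc0 : 0 ≤ c := mul_nonneg hγ0 (mul_nonneg hν0 (by linarith))
  have hform : ∀ q : ℝ, ((1 - γ) * q + γ * ν) * (1 - ((1 - γ) * q + γ * ν))
      - (1 - γ) * (q * (1 - q)) = Real.sqrt (4 * c + 4 * κ * (q - ν) ^ 2) ^ 2 / 4 := by
    intro q
    rw [Real.sq_sqrt (by positivity), hκ, hc]
    ring
  have hmem : ∀ q ∈ Icc (0 : ℝ) 1, Real.sqrt (4 * c + 4 * κ * (q - ν) ^ 2) ∈ Icc (0 : ℝ) 1 := by
    intro q hq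
    refine ⟨Real.sqrt_nonneg _, ?_⟩
    rw [Real.sqrt_le_left zero_le_one, one_pow]
    have h1 : 4 * c + 4 * κ * (q - ν) ^ 2
        = 1 - (1 - 2 * ((1 - γ) * q + γ * ν)) ^ 2 - 4 * ((1 - γ) * (q * (1 - q))) := by
      rw [hκ, hc]
      ring
    have h2 : 0 ≤ (1 - γ) * (q * (1 - q)) :=
      mul_nonneg (by linarith) (mul_nonneg hq.1 (by linarith [hq.2]))
    have h3 := sq_nonneg (1 - 2 * ((1 - γ) * q + γ * ν))
    rw [h1]
    linarith
  simp_rw [hform]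
  refine ⟨convex_Icc 0 1, ?_⟩
  intro x hx y hy a b ha hb hab
  simp only [smul_eq_mul]
  have hxy : a * x + b * y ∈ Icc (0 : ℝ) 1 := by
    have := (convex_Icc (0 : ℝ) 1) hx hy ha hb hab
    simpa only [smul_eq_mul] using this
  have h1 : a * x + b * y - ν = a * (x - ν) + b * (y - ν) := by
    have : ν = (a + b) * ν := by rw [hab, one_mul]
    calc a * x + b * y - ν = a * x + b * y - (a + b) * ν := by rw [← this]
      _ = _ := by ring
  have hle := norm_convex hκ0 hc0 (u := x - ν) (v := y - ν) ha hb hab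
  rw [← h1] at hle
  have hm2 : a * Real.sqrt (4 * c + 4 * κ * (x - ν) ^ 2)
      + b * Real.sqrt (4 * c + 4 * κ * (y - ν) ^ 2) ∈ Icc (0 : ℝ) 1 := by
    have := (convex_Icc (0 : ℝ) 1) (hmem x hx) (hmem y hy) ha hb hab
    simpa only [smul_eq_mul] using this
  have h2 := eof_mono (hmem _ hxy) hm2 hle
  have h3 := eof_convex.2 (hmem x hx) (hmem y hy) ha hb hab
  simp only [smul_eq_mul] at h2 h3
  exact h2.trans h3

end Vale.Agent.H13.GADG
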